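import Vale.Agent.P170.UB3.FixMain2

/-!
Numerical certificate for random 3-SAT.
-/

namespace Vale.Agent.P170

open Filter Topology

set_option maxRecDepth 1000000 in
theorem ub3_42668 : ∀ c : ℝ, ((42668 : ℕ) : ℝ) / ((10000 : ℕ) : ℝ) ≤ c →
    Tendsto (fun N : ℕ => satProb (2 + 1) N ⌊c * (N : ℝ)⌋₊) atTop (𝓝 0) :=
  rsb_cert2 2 (by norm_num) [(395182,113502),(382105,506554),(181349,831025),(41364,968976)] 1000000 1000000
    42668 10000 (2 ^ 728) 24 36 600 140 (2 ^ 1332) (2 ^ 1330)
    (by norm_num) (by norm_num) (by norm_num) (by norm_num) (by positivity) (by norm_num)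
    (by decide +kernel) (by decide +kernel) (by decide +kernel) (by decide +kernel)
    (by decide +kernel) (by decide +kernel) (by decide +kernel)

end Vale.Agent.P170
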