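import Vale.Agent.P170.UB3.FixMain2

/-!
Numerical certificate for random 6-SAT.
-/

namespace Vale.Agent.P170

open Filter Topology

set_option maxRecDepth 1000000 in
theorem ub6_43375 : ∀ c : ℝ, ((43375 : ℕ) : ℝ) / ((1000 : ℕ) : ℝ) ≤ c →
    Tendsto (fun N : ℕ => satProb (5 + 1) N ⌊c * (N : ℝ)⌋₊) atTop (𝓝 0) :=
  rsb_cert2 5 (by norm_num) [(6443,4628),(1861,3469),(1696,7803)] 10000 10000
    43375 1000 (2 ^ 460) 24 28 300 30 (2 ^ 764) (2 ^ 762)
    (by norm_num) (by norm_num) (by norm_num) (by norm_num) (by positivity) (by norm_num)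
    (by decide +kernel) (by decide +kernel) (by decide +kernel) (by decide +kernel)
    (by decide +kernel) (by decide +kernel) (by decide +kernel)

end Vale.Agent.P170
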