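import Vale.Agent.P170.UB3.Pack

/-!
Merging of equal types, and elementary bounds on the entries produced by `runH`.
-/

namespace Vale.Agent.P170

open Finset

/-- insert a weighted type, merging it with an equal one -/
def insT (a b : ℕ) : List (ℕ × ℕ) → List (ℕ × ℕ)
  | [] => [(a, b)]
  | c :: L => if c.2 = b then (c.1 + a, b) :: L else c :: insT a b L

/-- merge equal types -/
def compL : List (ℕ × ℕ) → List (ℕ × ℕ)
  | [] => []
  | c :: L => insT c.1 c.2 (compL L)

/-- all products of `j` atoms, equal ones being merged -/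
def tyC (wu : List (ℕ × ℕ)) : ℕ → List (ℕ × ℕ)
  | 0 => [(1, 1)]
  | j + 1 => compL (wu.flatMap (fun a => (tyC wu j).map (fun b => (a.1 * b.1, a.2 * b.2))))

lemma insT_sum (φ : ℕ → ℝ) (a b : ℕ) (L : List (ℕ × ℕ)) :
    ((insT a b L).map (fun c => (c.1 : ℝ) * φ c.2)).sum
      = (a : ℝ) * φ b + (L.map (fun c => (c.1 : ℝ) * φ c.2)).sum := by
  induction L with
  | nil => simp [insT]
  | cons c L ih =>
    simp only [insT]
    split_ifs with h
    · simp only [List.map_cons, List.sum_cons]
      rw [h]
      push_cast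
      ring
    · simp only [List.map_cons, List.sum_cons]
      rw [ih]
      ring

lemma compL_sum (φ : ℕ → ℝ) (L : List (ℕ × ℕ)) :
    ((compL L).map (fun c => (c.1 : ℝ) * φ c.2)).sum
      = (L.map (fun c => (c.1 : ℝ) * φ c.2)).sum := by
  induction L with
  | nil => simp [compL]
  | cons c L ih =>
    simp only [compL, List.map_cons, List.sum_cons]
    rw [insT_sum, ih]

lemma tyC_sum (wu : List (ℕ × ℕ)) : ∀ (j : ℕ) (φ : ℕ → ℝ),
    ((tyC wu j).map (fun c => (c.1 : ℝ) * φ c.2)).sum
      = ((tyN wu j).map (fun c => (c.1 : ℝ) * φ c.2)).sum := by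
  intro j
  induction j with
  | zero => intro φ; simp [tyC, tyN]
  | succ j ih =>
    intro φ
    simp only [tyC, tyN]
    rw [compL_sum, sum_map_flatMap', sum_map_flatMap']
    congr 1
    apply List.map_congr_left
    intro a _
    rw [List.map_map, List.map_map]
    have h := ih (fun x => φ (a.2 * x))
    have e1 : ∀ L : List (ℕ × ℕ),
        (L.map ((fun c : ℕ × ℕ => (c.1 : ℝ) * φ c.2) ∘ fun b => (a.1 * b.1, a.2 * b.2))).sum
          = (a.1 : ℝ) * (L.map (fun c => (c.1 : ℝ) * φ (a.2 * c.2))).sum := by
      intro L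
      rw [← List.sum_map_mul_left]
      congr 1
      apply List.map_congr_left
      intro b _
      simp only [Function.comp]
      push_cast
      ring
    rw [e1, e1, h]

lemma acc_le_tayHi (S yh : ℕ) : ∀ (n j t acc : ℕ), acc ≤ tayHi S yh n j t acc := by
  intro n
  induction n with
  | zero => intro j t acc; simp [tayHi]
  | succ n ih =>
    intro j t acc
    simp only [tayHi]
    exact le_trans (Nat.le_add_right _ _) (ih _ _ _)

lemma le_sqHi_nat (S : ℕ) (hS : 0 < S) : ∀ (s v : ℕ), S ≤ v → S ≤ sqHi S s v := by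
  intro s
  induction s with
  | zero => intro v h; simpa [sqHi] using h
  | succ s ih =>
    intro v h
    simp only [sqHi]
    apply ih
    have : S ≤ v * v / S := by
      rw [Nat.le_div_iff_mul_le hS]
      exact Nat.mul_le_mul h h
    omega

theorem le_expHi_nat (S s n yh : ℕ) (hS : 0 < S) (hn : 0 < n) : S ≤ expHi S s n yh := by
  unfold expHi
  apply le_sqHi_nat S hS
  obtain ⟨n', rfl⟩ : ∃ n', n = n' + 1 := ⟨n - 1, by omega⟩
  simp only [tayHi]
  refine le_trans ?_ (acc_le_tayHi _ _ _ _ _ _)
  omega

lemma div_le_of_le (S E : ℕ) (hS : 0 < S) (h : S ≤ E) : S * S / E ≤ S := by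
  have hE : 0 < E := lt_of_lt_of_le hS h
  rw [Nat.div_le_iff_le_mul_add_pred hE]
  have := Nat.mul_le_mul_left S h
  have e : E * S = S * E := Nat.mul_comm _ _
  omega

lemma runH_bd (S s n D W mn md : ℕ) (hS : 0 < S) (hn : 0 < n) :
    ∀ (f : ℕ) (par : Bool) (L : List (ℕ × ℕ × ℕ × ℕ)),
      BdL ((S : ℤ) + 1) (runH S s n D W mn md f par L) := by
  intro f
  induction f with
  | zero => intro par L x hx; simp [runH] at hx
  | succ f ih =>
    intro par L x hx
    cases par with
    | false =>
      simp only [runH, List.mem_cons] at hx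
      rcases hx with hx | hx
      · rw [hx]
        have h1 := div_le_of_le S _ hS (le_expHi_nat S s n
          (mn * (S * W - sumLo L) / (md * W * 2 ^ s) + 1) hS hn)
        rw [abs_of_nonneg (by positivity)]
        have : ((S * S / expHi S s n (mn * (S * W - sumLo L) / (md * W * 2 ^ s) + 1) : ℕ) : ℤ)
            ≤ (S : ℤ) := by exact_mod_cast h1
        linarith
      · exact ih _ _ x hx
    | true =>
      simp only [runH, List.mem_cons] at hx
      rcases hx with hx | hx
      · rw [hx]
        have h1 := div_le_of_le S _ hS (le_expLo S s n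
          (mn * (S * W - sumHi L) / (md * W * 2 ^ s)) hS hn)
        rw [abs_of_nonneg (by positivity)]
        have : ((S * S / expLo S s n (mn * (S * W - sumHi L) / (md * W * 2 ^ s)) + 1 : ℕ) : ℤ)
            ≤ (S : ℤ) + 1 := by
          push_cast
          have : ((S * S / expLo S s n (mn * (S * W - sumHi L) / (md * W * 2 ^ s)) : ℕ) : ℤ)
            ≤ (S : ℤ) := by exact_mod_cast h1
          push_cast at this
          linarith
        exact this
      · exact ih _ _ x hx

lemma runH_length (S s n D W mn md : ℕ) :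
    ∀ (f : ℕ) (par : Bool) (L : List (ℕ × ℕ × ℕ × ℕ)),
      (runH S s n D W mn md f par L).length = f := by
  intro f
  induction f with
  | zero => intro par L; simp [runH]
  | succ f ih =>
    intro par L
    cases par <;> simp [runH, ih]

end Vale.Agent.P170
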