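import Mathlib

/-!
Fixed point evaluation (natural numbers with a common scale `S`) of the quantities entering the
one-step replica-symmetry-breaking criterion.
-/

namespace Vale.Agent.P170

/-- lower Taylor sum of the exponential, scale `S`; arguments: fuel, index, term, accumulator -/
def tayLo (S yl : ℕ) : ℕ → ℕ → ℕ → ℕ → ℕ
  | 0, _, _, acc => acc
  | n + 1, j, t, acc => tayLo S yl n (j + 1) (t * yl / (S * (j + 1))) (acc + t)

/-- upper Taylor sum of the exponential, scale `S` -/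
def tayHi (S yh : ℕ) : ℕ → ℕ → ℕ → ℕ → ℕ
  | 0, _, t, acc => acc + 2 * t
  | n + 1, j, t, acc => tayHi S yh n (j + 1) (t * yh / (S * (j + 1)) + 1) (acc + t)

/-- repeated squaring, rounded down -/
def sqLo (S : ℕ) : ℕ → ℕ → ℕ
  | 0, v => v
  | s + 1, v => sqLo S s (v * v / S)

/-- repeated squaring, rounded up -/
def sqHi (S : ℕ) : ℕ → ℕ → ℕ
  | 0, v => v
  | s + 1, v => sqHi S s (v * v / S + 1)

/-- lower bound for `S * exp (y * 2 ^ s)` -/
def expLo (S s n yl : ℕ) : ℕ := sqLo S s (tayLo S yl n 0 S 0)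

/-- upper bound for `S * exp (y * 2 ^ s)` -/
def expHi (S s n yh : ℕ) : ℕ := sqHi S s (tayHi S yh n 0 S 0)

/-- all products of `j` atoms: pairs (product of weights, product of values) -/
def tyN (wu : List (ℕ × ℕ)) : ℕ → List (ℕ × ℕ)
  | 0 => [(1, 1)]
  | j + 1 => wu.flatMap (fun a => (tyN wu j).map (fun b => (a.1 * b.1, a.2 * b.2)))

/-- one multiplication step for the enclosures of the powers; entries are
(weight, numerator of `x`, lower, upper) -/
def stepL (D : ℕ) (L : List (ℕ × ℕ × ℕ × ℕ)) : List (ℕ × ℕ × ℕ × ℕ) :=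
  L.map (fun b => (b.1, b.2.1, b.2.2.1 * b.2.1 / D, b.2.2.2 * b.2.1 / D + 1))

def sumLo : List (ℕ × ℕ × ℕ × ℕ) → ℕ
  | [] => 0
  | b :: L => b.1 * b.2.2.1 + sumLo L

def sumHi : List (ℕ × ℕ × ℕ × ℕ) → ℕ
  | [] => 0
  | b :: L => b.1 * b.2.2.2 + sumHi L

/-- alternating lower and upper approximations of `S * exp (- μ (1 - M i))`;
`W` is the total weight, `μ = mn / md` -/
def runH (S s n D W mn md : ℕ) : ℕ → Bool → List (ℕ × ℕ × ℕ × ℕ) → List ℤ
  | 0, _, _ => []
  | f + 1, false, L =>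
    ((S * S / expHi S s n (mn * (S * W - sumLo L) / (md * W * 2 ^ s) + 1) : ℕ) : ℤ) ::
      runH S s n D W mn md f true (stepL D L)
  | f + 1, true, L =>
    ((S * S / expLo S s n (mn * (S * W - sumHi L) / (md * W * 2 ^ s)) + 1 : ℕ) : ℤ) ::
      runH S s n D W mn md f false (stepL D L)

/-- consecutive differences, with the previous entry given -/
def diffZA : ℤ → List ℤ → List ℤ
  | _, [] => []
  | a, b :: l => (a - b) :: diffZA b l

/-- consecutive differences -/
def diffZ : List ℤ → List ℤ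
  | [] => []
  | a :: l => diffZA a l

/-- sum of the squares of the positive parts of the heads of the iterated differences,
divided by `p + 1` -/
def sigZ : ℕ → ℕ → List ℤ → ℚ
  | 0, _, _ => 0
  | n + 1, p, L => ((max (L.headD 0) 0 ^ 2 : ℤ) : ℚ) / ((p : ℚ) + 1) + sigZ n (p + 1) (diffZ L)

/-- initial state of the enclosures -/
def initL (S D : ℕ) (L : List (ℕ × ℕ)) : List (ℕ × ℕ × ℕ × ℕ) :=
  L.map (fun b => (b.1, D - b.2, S, S))

/-- the lower bound for `S ^ 2 * ∑ p < P, Ahat (p + 1) ^ 2 / (p + 1)` -/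
def sigAll (wu : List (ℕ × ℕ)) (Wd Ud j S s n mn md P : ℕ) : ℚ :=
  sigZ P 0 (diffZ (runH S s n (Ud ^ j) (Wd ^ j) mn md (P + 1) false
    (initL S (Ud ^ j) (tyN wu j))))

end Vale.Agent.P170
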