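import Vale.Agent.P170.UB3.FixDefs

/-!
Correctness of the fixed point enclosures of the exponential function.
-/

namespace Vale.Agent.P170

open Finset

lemma fx_div_le (a d : ℕ) : ((a / d : ℕ) : ℝ) ≤ (a : ℝ) / d := Nat.cast_div_le

lemma fx_le_div (a d : ℕ) (hd : 0 < d) : (a : ℝ) / d ≤ ((a / d + 1 : ℕ) : ℝ) := by
  have h := Nat.lt_mul_div_succ a hd
  have hd' : (0 : ℝ) < d := by exact_mod_cast hd
  rw [div_le_iff₀ hd']
  have h2 : (a : ℝ) < ((d * (a / d + 1) : ℕ) : ℝ) := by exact_mod_cast h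
  push_cast at h2 ⊢
  nlinarith

lemma tayLo_le (S yl : ℕ) (hS : 0 < S) (y : ℝ) (hy : 0 ≤ y) (hyl : (yl : ℝ) ≤ S * y) :
    ∀ (n j t acc : ℕ), (t : ℝ) ≤ S * (y ^ j / j.factorial) →
      (acc : ℝ) ≤ S * ∑ i ∈ range j, y ^ i / i.factorial →
      (tayLo S yl n j t acc : ℝ) ≤ S * ∑ i ∈ range (j + n), y ^ i / i.factorial := by
  have hS' : (0 : ℝ) < S := by exact_mod_cast hS
  intro n
  induction n with
  | zero => intro j t acc _ hacc; simpa [tayLo] using hacc
  | succ n ih =>
    intro j t acc ht hacc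
    have e : j + (n + 1) = (j + 1) + n := by ring
    rw [e]
    simp only [tayLo]
    apply ih
    · have h1 := fx_div_le (t * yl) (S * (j + 1))
      refine h1.trans ?_
      have hj : (0 : ℝ) < (j : ℝ) + 1 := by positivity
      have hf : (0 : ℝ) < (j.factorial : ℝ) := by exact_mod_cast j.factorial_pos
      have h2 : ((t * yl : ℕ) : ℝ) ≤ (S * (y ^ j / j.factorial)) * (S * y) := by
        push_cast
        exact mul_le_mul ht hyl (Nat.cast_nonneg _) (by positivity)
      rw [div_le_iff₀ (by positivity)]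
      refine h2.trans (le_of_eq ?_)
      rw [Nat.factorial_succ]
      push_cast
      field_simp
      ring
    · rw [Finset.sum_range_succ, mul_add]
      push_cast
      linarith

lemma le_tayHi (S yh : ℕ) (hS : 0 < S) (y : ℝ) (hy : 0 ≤ y) (hyh : S * y ≤ (yh : ℝ)) :
    ∀ (n j t acc : ℕ), S * (y ^ j / j.factorial) ≤ (t : ℝ) →
      S * ∑ i ∈ range j, y ^ i / i.factorial ≤ (acc : ℝ) →
      S * (∑ i ∈ range (j + n), y ^ i / i.factorial + 2 * (y ^ (j + n) / (j + n).factorial))
        ≤ (tayHi S yh n j t acc : ℝ) := by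
  have hS' : (0 : ℝ) < S := by exact_mod_cast hS
  intro n
  induction n with
  | zero =>
    intro j t acc ht hacc
    simp only [tayHi, add_zero]
    push_cast
    linarith
  | succ n ih =>
    intro j t acc ht hacc
    have e : j + (n + 1) = (j + 1) + n := by ring
    rw [e]
    simp only [tayHi]
    apply ih
    · have h1 := fx_le_div (t * yh) (S * (j + 1)) (by positivity)
      refine le_trans ?_ h1
      have hj : (0 : ℝ) < (j : ℝ) + 1 := by positivity
      have hf : (0 : ℝ) < (j.factorial : ℝ) := by exact_mod_cast j.factorial_pos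
      have h2 : (S * (y ^ j / j.factorial)) * (S * y) ≤ ((t * yh : ℕ) : ℝ) := by
        push_cast
        exact mul_le_mul ht hyh (by positivity) (Nat.cast_nonneg _)
      rw [le_div_iff₀ (by positivity)]
      refine le_trans (le_of_eq ?_) h2
      rw [Nat.factorial_succ]
      push_cast
      field_simp
      ring
    · rw [Finset.sum_range_succ, mul_add]
      push_cast
      linarith

lemma sqLo_le (S : ℕ) (hS : 0 < S) : ∀ (s v : ℕ) (y : ℝ), (v : ℝ) ≤ S * Real.exp y →
    (sqLo S s v : ℝ) ≤ S * Real.exp (y * 2 ^ s) := by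
  have hS' : (0 : ℝ) < S := by exact_mod_cast hS
  intro s
  induction s with
  | zero => intro v y h; simpa [sqLo] using h
  | succ s ih =>
    intro v y h
    simp only [sqLo]
    have e : y * 2 ^ (s + 1) = (y + y) * 2 ^ s := by ring
    rw [e]
    apply ih
    refine (fx_div_le _ _).trans ?_
    rw [div_le_iff₀ hS', Real.exp_add]
    push_cast
    have := mul_le_mul h h (Nat.cast_nonneg _) (by positivity)
    nlinarith

lemma le_sqHi (S : ℕ) (hS : 0 < S) : ∀ (s v : ℕ) (y : ℝ), S * Real.exp y ≤ (v : ℝ) →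
    S * Real.exp (y * 2 ^ s) ≤ (sqHi S s v : ℝ) := by
  have hS' : (0 : ℝ) < S := by exact_mod_cast hS
  intro s
  induction s with
  | zero => intro v y h; simpa [sqHi] using h
  | succ s ih =>
    intro v y h
    simp only [sqHi]
    have e : y * 2 ^ (s + 1) = (y + y) * 2 ^ s := by ring
    rw [e]
    apply ih
    refine le_trans ?_ (fx_le_div _ _ hS)
    rw [le_div_iff₀ hS', Real.exp_add]
    push_cast
    have := mul_le_mul h h (by positivity) (Nat.cast_nonneg _)
    nlinarith

theorem expLo_le (S s n yl : ℕ) (hS : 0 < S) (y : ℝ) (hy : 0 ≤ y) (hyl : (yl : ℝ) ≤ S * y) :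
    (expLo S s n yl : ℝ) ≤ S * Real.exp (y * 2 ^ s) := by
  have hS' : (0 : ℝ) < S := by exact_mod_cast hS
  unfold expLo
  apply sqLo_le S hS
  have h := tayLo_le S yl hS y hy hyl n 0 S 0 (by simp) (by simp)
  refine h.trans ?_
  exact mul_le_mul_of_nonneg_left (Real.sum_le_exp_of_nonneg hy _) hS'.le

theorem le_expHi (S s n yh : ℕ) (hS : 0 < S) (hn : 0 < n) (y : ℝ) (hy : 0 ≤ y) (hy1 : y ≤ 1)
    (hyh : S * y ≤ (yh : ℝ)) : S * Real.exp (y * 2 ^ s) ≤ (expHi S s n yh : ℝ) := by
  have hS' : (0 : ℝ) < S := by exact_mod_cast hS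
  unfold expHi
  apply le_sqHi S hS
  have h := le_tayHi S yh hS y hy hyh n 0 S 0 (by simp) (by simp)
  refine le_trans ?_ h
  apply mul_le_mul_of_nonneg_left _ hS'.le
  rw [zero_add]
  refine (Real.exp_bound' hy hy1 hn).trans ?_
  have hn' : (1 : ℝ) ≤ n := by exact_mod_cast hn
  have hf : (0 : ℝ) < (n.factorial : ℝ) := by exact_mod_cast n.factorial_pos
  have h3 : y ^ n * (n + 1) / (n.factorial * n) ≤ 2 * (y ^ n / n.factorial) := by
    rw [div_le_iff₀ (by positivity)]
    have h4 : 2 * (y ^ n / n.factorial) * (n.factorial * n) = y ^ n * (2 * n) := by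
      field_simp
    rw [h4]
    apply mul_le_mul_of_nonneg_left _ (by positivity)
    linarith
  linarith

lemma acc_le_tayLo (S yl : ℕ) : ∀ (n j t acc : ℕ), acc ≤ tayLo S yl n j t acc := by
  intro n
  induction n with
  | zero => intro j t acc; simp [tayLo]
  | succ n ih =>
    intro j t acc
    simp only [tayLo]
    exact le_trans (Nat.le_add_right _ _) (ih _ _ _)

lemma le_sqLo (S : ℕ) (hS : 0 < S) : ∀ (s v : ℕ), S ≤ v → S ≤ sqLo S s v := by
  intro s
  induction s with
  | zero => intro v h; simpa [sqLo] using h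
  | succ s ih =>
    intro v h
    simp only [sqLo]
    apply ih
    rw [Nat.le_div_iff_mul_le hS]
    exact Nat.mul_le_mul h h

theorem le_expLo (S s n yl : ℕ) (hS : 0 < S) (hn : 0 < n) : S ≤ expLo S s n yl := by
  unfold expLo
  apply le_sqLo S hS
  obtain ⟨n', rfl⟩ : ∃ n', n = n' + 1 := ⟨n - 1, by omega⟩
  simp only [tayLo]
  refine le_trans ?_ (acc_le_tayLo _ _ _ _ _ _)
  omega

/-- lower approximation of `S * exp (-z)` -/
theorem recip_le (S E : ℕ) (hS : 0 < S) (z : ℝ) (hE : S * Real.exp z ≤ (E : ℝ)) :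
    ((S * S / E : ℕ) : ℝ) ≤ S * Real.exp (-z) := by
  have hS' : (0 : ℝ) < S := by exact_mod_cast hS
  have hE0 : (0 : ℝ) < E := lt_of_lt_of_le (by positivity) hE
  refine (fx_div_le _ _).trans ?_
  rw [div_le_iff₀ hE0, Real.exp_neg]
  push_cast
  have h1 : (S : ℝ) * (Real.exp z)⁻¹ * (S * Real.exp z) ≤ S * (Real.exp z)⁻¹ * E :=
    mul_le_mul_of_nonneg_left hE (by positivity)
  have h2 : (S : ℝ) * (Real.exp z)⁻¹ * (S * Real.exp z) = S * S := by
    field_simp
  linarith

/-- upper approximation of `S * exp (-z)` -/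
theorem le_recip (S E : ℕ) (hS : 0 < S) (hE0 : 0 < E) (z : ℝ) (hE : (E : ℝ) ≤ S * Real.exp z) :
    S * Real.exp (-z) ≤ ((S * S / E + 1 : ℕ) : ℝ) := by
  have hS' : (0 : ℝ) < S := by exact_mod_cast hS
  have hE0' : (0 : ℝ) < E := by exact_mod_cast hE0
  refine le_trans ?_ (fx_le_div _ _ hE0)
  rw [le_div_iff₀ hE0', Real.exp_neg]
  push_cast
  have h1 : (S : ℝ) * (Real.exp z)⁻¹ * E ≤ S * (Real.exp z)⁻¹ * (S * Real.exp z) :=
    mul_le_mul_of_nonneg_left hE (by positivity)
  have h2 : (S : ℝ) * (Real.exp z)⁻¹ * (S * Real.exp z) = S * S := by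
    field_simp
  linarith

end Vale.Agent.P170
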