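import Vale.Agent.P170.UB3.FixMom
import Vale.Agent.P170.UB2.OneRSB
import Vale.Agent.P170.UB2.CertTools3

/-!
Reduction of the one-step replica-symmetry-breaking criterion to a finite computation.
-/

namespace Vale.Agent.P170

open Finset Filter Topology

/-- rational upper bound for `LamRSB` -/
def lamUp (wu : List (ℕ × ℕ)) (Wd Ud k K : ℕ) : ℚ :=
  ((tyN wu k).map (fun b => (b.1 : ℚ) / (Wd : ℚ) ^ k *
    (-logLow ((b.2 : ℚ) / (Ud : ℚ) ^ k) K))).sum

lemma list_sum_le_cast (L : List (ℕ × ℕ)) (F : ℕ × ℕ → ℝ) (Gq : ℕ × ℕ → ℚ)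
    (h : ∀ b ∈ L, F b ≤ (Gq b : ℝ)) : (L.map F).sum ≤ (((L.map Gq).sum : ℚ) : ℝ) := by
  induction L with
  | nil => simp
  | cons b L ih =>
    simp only [List.map_cons, List.sum_cons]
    rw [Rat.cast_add]
    have h1 := h b (by simp)
    have h2 := ih (fun c hc => h c (by simp [hc]))
    linarith

/-- weights of the atoms -/
noncomputable def wOf (wu : List (ℕ × ℕ)) (Wd : ℕ) : Fin wu.length → ℝ :=
  fun t => ((wu[t.1]).1 : ℝ) / Wd

/-- positions of the atoms -/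
noncomputable def uOf (wu : List (ℕ × ℕ)) (Ud : ℕ) : Fin wu.length → ℝ :=
  fun t => ((wu[t.1]).2 : ℝ) / Ud

lemma prod_wOf (wu : List (ℕ × ℕ)) (Wd j : ℕ) (e : Fin j → Fin wu.length) :
    ∏ s, wOf wu Wd (e s) = ((∏ s, (wu[(e s).1]).1 : ℕ) : ℝ) / (Wd : ℝ) ^ j := by
  unfold wOf
  rw [Finset.prod_div_distrib, Finset.prod_const, Finset.card_univ, Fintype.card_fin]
  push_cast
  rfl

lemma prod_uOf (wu : List (ℕ × ℕ)) (Ud j : ℕ) (e : Fin j → Fin wu.length) :
    ∏ s, uOf wu Ud (e s) = ((∏ s, (wu[(e s).1]).2 : ℕ) : ℝ) / (Ud : ℝ) ^ j := by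
  unfold uOf
  rw [Finset.prod_div_distrib, Finset.prod_const, Finset.card_univ, Fintype.card_fin]
  push_cast
  rfl

lemma Mmom_eq (wu : List (ℕ × ℕ)) (Wd Ud j : ℕ) (hUd : 0 < Ud)
    (hb : ∀ b ∈ tyN wu j, b.2 ≤ Ud ^ j) (i : ℕ) :
    Mmom j (wOf wu Wd) (uOf wu Ud) i = momL (Ud ^ j) (tyN wu j) i / ((Wd ^ j : ℕ) : ℝ) := by
  unfold Mmom
  simp_rw [prod_wOf, prod_uOf]
  rw [tyN_sum wu j (fun A B => (A : ℝ) / (Wd : ℝ) ^ j * (1 - (B : ℝ) / (Ud : ℝ) ^ j) ^ i)]
  unfold momL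
  rw [div_eq_mul_inv, ← List.sum_map_mul_right]
  congr 1
  apply List.map_congr_left
  intro b hb'
  have hD : (0 : ℝ) < (Ud : ℝ) ^ j := by positivity
  rw [Nat.cast_sub (hb b hb')]
  push_cast
  rw [sub_div, div_self hD.ne']
  ring

lemma momL_nonneg (D : ℕ) (L : List (ℕ × ℕ)) (i : ℕ) : 0 ≤ momL D L i := by
  unfold momL
  apply List.sum_nonneg
  intro x hx
  rw [List.mem_map] at hx
  obtain ⟨b, _, rfl⟩ := hx
  positivity

lemma momL_le (D : ℕ) (hD : 0 < D) (L : List (ℕ × ℕ)) (i : ℕ) :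
    momL D L i ≤ (((L.map Prod.fst).sum : ℕ) : ℝ) := by
  have hD' : (0 : ℝ) < D := by exact_mod_cast hD
  induction L with
  | nil => simp [momL]
  | cons b L ih =>
    simp only [momL, List.map_cons, List.sum_cons] at ih ⊢
    rw [Nat.cast_add]
    have h1 : (((D - b.2 : ℕ) : ℝ) / D) ^ i ≤ 1 := by
      apply pow_le_one₀ (by positivity)
      rw [div_le_one hD']
      exact_mod_cast Nat.sub_le _ _
    have h2 : (b.1 : ℝ) * (((D - b.2 : ℕ) : ℝ) / D) ^ i ≤ b.1 := by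
      have := mul_le_mul_of_nonneg_left h1 (Nat.cast_nonneg (α := ℝ) b.1)
      linarith
    linarith

lemma LamRSB_le (wu : List (ℕ × ℕ)) (Wd Ud k K : ℕ) (hUd : 0 < Ud)
    (hb : ∀ b ∈ tyN wu k, b.2 < Ud ^ k) :
    LamRSB k (wOf wu Wd) (uOf wu Ud) ≤ ((lamUp wu Wd Ud k K : ℚ) : ℝ) := by
  unfold LamRSB lamUp
  simp_rw [prod_wOf, prod_uOf]
  rw [tyN_sum wu k (fun A B => (A : ℝ) / (Wd : ℝ) ^ k * (-Real.log (1 - (B : ℝ) / (Ud : ℝ) ^ k)))]
  apply list_sum_le_cast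
  intro b hb'
  have hD : (0 : ℚ) < (Ud : ℚ) ^ k := by positivity
  have h0 : (0 : ℚ) ≤ (b.2 : ℚ) / (Ud : ℚ) ^ k := by positivity
  have h1 : (b.2 : ℚ) / (Ud : ℚ) ^ k < 1 := by
    rw [div_lt_one hD]
    exact_mod_cast hb b hb'
  have h2 := logLow_le _ h0 h1 K
  push_cast at h2 ⊢
  apply mul_le_mul_of_nonneg_left _ (by positivity)
  linarith

/-- the finite computation implies the upper bound on the satisfiability threshold -/
theorem rsb_cert (j : ℕ) (hj : 1 ≤ j) (wu : List (ℕ × ℕ)) (Wd Ud an ad S s n P K : ℕ)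
    (hWd : 0 < Wd) (hUd : 0 < Ud) (han : 0 < an) (had : 0 < ad) (hS : 0 < S) (hn : 0 < n)
    (hsum : (wu.map Prod.fst).sum = Wd) (hu : ∀ b ∈ wu, b.2 < Ud)
    (hsumj : ((tyN wu j).map Prod.fst).sum = Wd ^ j)
    (hbj : ∀ b ∈ tyN wu j, b.2 ≤ Ud ^ j) (hbk : ∀ b ∈ tyN wu (j + 1), b.2 < Ud ^ (j + 1))
    (hμ : (j + 1) * an ≤ 2 * ad * 2 ^ s)
    (hfin : (an : ℚ) / ad * j * lamUp wu Wd Ud (j + 1) K * (S : ℚ) ^ 2
      < sigAll wu Wd Ud j S s n ((j + 1) * an) (2 * ad) P) :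
    ∀ c : ℝ, (an : ℝ) / ad ≤ c →
      Tendsto (fun N : ℕ => satProb (j + 1) N ⌊c * (N : ℝ)⌋₊) atTop (𝓝 0) := by
  have hWd' : (0 : ℝ) < Wd := by exact_mod_cast hWd
  have hUd' : (0 : ℝ) < Ud := by exact_mod_cast hUd
  have han' : (0 : ℝ) < an := by exact_mod_cast han
  have had' : (0 : ℝ) < ad := by exact_mod_cast had
  have hS' : (0 : ℝ) < S := by exact_mod_cast hS
  set w := wOf wu Wd with hw
  set u := uOf wu Ud with hu'
  set α : ℝ := (an : ℝ) / ad with hα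
  have hα0 : 0 < α := by rw [hα]; positivity
  refine one_rsb_upper (j + 1) (by omega) w u ?_ ?_ ?_ ?_ α hα0 P ?_
  · intro t; rw [hw]; unfold wOf; positivity
  · rw [hw]; unfold wOf
    rw [← Finset.sum_div, Fin.sum_univ_fun_getElem wu (fun b => (b.1 : ℝ))]
    have : (wu.map (fun b => (b.1 : ℝ))).sum = (((wu.map Prod.fst).sum : ℕ) : ℝ) := by
      rw [Nat.cast_list_sum, List.map_map]
      rfl
    rw [this, hsum, div_self hWd'.ne']
  · intro t; rw [hu']; unfold uOf; positivity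
  · intro t; rw [hu']; unfold uOf
    rw [div_lt_one hUd']
    exact_mod_cast hu _ (List.getElem_mem _)
  · -- the criterion
    set D := Ud ^ j with hD
    set W := Wd ^ j with hW
    have hD0 : 0 < D := by rw [hD]; positivity
    have hW0 : 0 < W := by rw [hW]; positivity
    set L := tyN wu j with hL
    set mn := (j + 1) * an with hmn
    set md := 2 * ad with hmd
    have hmd0 : 0 < md := by rw [hmd]; positivity
    set f : ℕ → ℝ := fun i => S * Real.exp (-((mn : ℝ) / md) * (1 - momL D L i / W)) with hf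
    have hrun := (runH_alt S s n D W mn md hS hn hD0 hW0 hmd0 hμ L (momL_nonneg D L)
      (fun i => by
        have := momL_le D hD0 L i
        rw [hsumj] at this
        exact this) (P + 1) 0).1
    have e0 : (fun i => (S : ℝ) * Real.exp (-((mn : ℝ) / md) * (1 - momL D L (0 + i) / W))) = f := by
      funext i
      rw [zero_add]
    rw [e0, ← initL_eq] at hrun
    have hdiff : AltEnc false (diffZ (runH S s n D W mn md (P + 1) false (initL S D L)))
        (dd f (0 + 1)) := AltEnc_diffZ _ _ hrun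
    have hsig := sigZ_le f P 0 _ hdiff
    have hμeq : ((j + 1 : ℕ) : ℝ) * α / 2 = (mn : ℝ) / md := by
      rw [hα, hmn, hmd]; push_cast; field_simp
    have hA : ∀ p, dd f p 0 = S * Ahat j w u (((j + 1 : ℕ) : ℝ) * α / 2) p := by
      intro p
      rw [dd_eq_sum]
      unfold Ahat
      rw [Finset.mul_sum]
      refine Finset.sum_congr rfl (fun i _ => ?_)
      rw [zero_add, hμeq, hw, hu', Mmom_eq wu Wd Ud j hUd hbj i]
      simp only [hf]
      ring
    have hsig2 : ((sigAll wu Wd Ud j S s n mn md P : ℚ) : ℝ) ≤ (S : ℝ) ^ 2 *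
        ∑ p ∈ range P, Ahat j w u (((j + 1 : ℕ) : ℝ) * α / 2) (p + 1) ^ 2 / ((p : ℝ) + 1) := by
      unfold sigAll
      refine hsig.trans (le_of_eq ?_)
      rw [Finset.mul_sum]
      refine Finset.sum_congr rfl (fun p _ => ?_)
      rw [zero_add, hA]
      ring
    have hlam := LamRSB_le wu Wd Ud (j + 1) K hUd hbk
    have hfin' : α * j * ((lamUp wu Wd Ud (j + 1) K : ℚ) : ℝ) * (S : ℝ) ^ 2
        < ((sigAll wu Wd Ud j S s n mn md P : ℚ) : ℝ) := by
      have := (Rat.cast_lt (K := ℝ)).2 hfin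
      push_cast at this
      rw [hα]
      exact this
    have e1 : (((j + 1 : ℕ) : ℝ)) - 1 = j := by push_cast; ring
    have e2 : j + 1 - 1 = j := by simp
    rw [e1, e2]
    have hαj : 0 ≤ α * j := by positivity
    have h5 : α * j * LamRSB (j + 1) w u ≤ α * j * ((lamUp wu Wd Ud (j + 1) K : ℚ) : ℝ) :=
      mul_le_mul_of_nonneg_left hlam hαj
    have hS2 : (0 : ℝ) < (S : ℝ) ^ 2 := by positivity
    have h6 : α * j * LamRSB (j + 1) w u * (S : ℝ) ^ 2 < (S : ℝ) ^ 2 *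
        ∑ p ∈ range P, Ahat j w u (((j + 1 : ℕ) : ℝ) * α / 2) (p + 1) ^ 2 / ((p : ℝ) + 1) := by
      have := mul_le_mul_of_nonneg_right h5 hS2.le
      linarith
    rw [mul_comm ((S : ℝ) ^ 2)] at h6
    exact lt_of_mul_lt_mul_right h6 hS2.le

end Vale.Agent.P170
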