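import Vale.Agent.P170.UB3.Comp
import Vale.Agent.P170.UB3.FixMain

/-!
Second version of the reduction of the criterion to a finite computation: merged types and a
packed difference table.
-/

namespace Vale.Agent.P170

open Finset Filter Topology

/-- rational upper bound for `LamRSB`, merged types -/
def lamUp2 (wu : List (ℕ × ℕ)) (Wd Ud k K : ℕ) : ℚ :=
  ((tyC wu k).map (fun b => (b.1 : ℚ) / (Wd : ℚ) ^ k *
    (-logLow ((b.2 : ℚ) / (Ud : ℚ) ^ k) K))).sum

/-- the lower bound for `S ^ 2 * ∑ p < P, Ahat (p + 1) ^ 2 / (p + 1)`, packed evaluation -/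
def sigAll2 (wu : List (ℕ × ℕ)) (Wd Ud j S s n mn md P : ℕ) (B C : ℤ) : ℚ :=
  sigPk B C P 0 (stepPk B C (packZ B (runH S s n (Ud ^ j) (Wd ^ j) mn md (P + 1) false
    (initL S (Ud ^ j) (tyC wu j)))))

lemma tyN_le (wu : List (ℕ × ℕ)) (Ud : ℕ) (hu : ∀ b ∈ wu, b.2 < Ud) :
    ∀ j, ∀ b ∈ tyN wu j, b.2 ≤ Ud ^ j := by
  intro j
  induction j with
  | zero => intro b hb; simp [tyN] at hb; simp [hb]
  | succ j ih =>
    intro b hb
    simp only [tyN, List.mem_flatMap, List.mem_map] at hb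
    obtain ⟨a, ha, c, hc, rfl⟩ := hb
    simp only
    rw [pow_succ, Nat.mul_comm (Ud ^ j)]
    exact Nat.mul_le_mul (hu a ha).le (ih c hc)

lemma tyN_wsum (wu : List (ℕ × ℕ)) : ∀ j,
    ((tyN wu j).map (fun c => (c.1 : ℝ))).sum = ((wu.map (fun c => (c.1 : ℝ))).sum) ^ j := by
  intro j
  induction j with
  | zero => simp [tyN]
  | succ j ih =>
    simp only [tyN]
    rw [sum_map_flatMap', pow_succ, ← ih, mul_comm, ← List.sum_map_mul_right]
    congr 1
    apply List.map_congr_left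
    intro a _
    rw [List.map_map, ← List.sum_map_mul_left]
    congr 1
    apply List.map_congr_left
    intro b _
    simp only [Function.comp]
    push_cast
    ring

lemma momL_tyC (wu : List (ℕ × ℕ)) (D j i : ℕ) :
    momL D (tyC wu j) i = momL D (tyN wu j) i := by
  unfold momL
  exact tyC_sum wu j (fun B => (((D - B : ℕ) : ℝ) / D) ^ i)

lemma LamRSB_le2 (wu : List (ℕ × ℕ)) (Wd Ud k K : ℕ) (hUd : 0 < Ud)
    (hb : ∀ b ∈ tyC wu k, b.2 < Ud ^ k) :
    LamRSB k (wOf wu Wd) (uOf wu Ud) ≤ ((lamUp2 wu Wd Ud k K : ℚ) : ℝ) := by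
  unfold LamRSB lamUp2
  simp_rw [prod_wOf, prod_uOf]
  rw [tyN_sum wu k (fun A B => (A : ℝ) / (Wd : ℝ) ^ k * (-Real.log (1 - (B : ℝ) / (Ud : ℝ) ^ k)))]
  have e : ((tyN wu k).map (fun b => (b.1 : ℝ) / (Wd : ℝ) ^ k *
      (-Real.log (1 - (b.2 : ℝ) / (Ud : ℝ) ^ k)))).sum
      = ((tyC wu k).map (fun b => (b.1 : ℝ) / (Wd : ℝ) ^ k *
      (-Real.log (1 - (b.2 : ℝ) / (Ud : ℝ) ^ k)))).sum := by
    have h := tyC_sum wu k (fun B => 1 / (Wd : ℝ) ^ k * (-Real.log (1 - (B : ℝ) / (Ud : ℝ) ^ k)))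
    have e1 : ∀ L : List (ℕ × ℕ), (L.map (fun b => (b.1 : ℝ) / (Wd : ℝ) ^ k *
        (-Real.log (1 - (b.2 : ℝ) / (Ud : ℝ) ^ k)))) = (L.map (fun c => (c.1 : ℝ) *
        (1 / (Wd : ℝ) ^ k * (-Real.log (1 - (c.2 : ℝ) / (Ud : ℝ) ^ k))))) := by
      intro L
      apply List.map_congr_left
      intro b _
      ring
    rw [e1, e1, h]
  rw [e]
  apply list_sum_le_cast
  intro b hb'
  have hD : (0 : ℚ) < (Ud : ℚ) ^ k := by positivity
  have h0 : (0 : ℚ) ≤ (b.2 : ℚ) / (Ud : ℚ) ^ k := by positivity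
  have h1 : (b.2 : ℚ) / (Ud : ℚ) ^ k < 1 := by
    rw [div_lt_one hD]
    exact_mod_cast hb b hb'
  have h2 := logLow_le _ h0 h1 K
  push_cast at h2 ⊢
  apply mul_le_mul_of_nonneg_left _ (by positivity)
  linarith

/-- the finite computation implies the upper bound on the satisfiability threshold -/
theorem rsb_cert2 (j : ℕ) (hj : 1 ≤ j) (wu : List (ℕ × ℕ)) (Wd Ud an ad S s n P K : ℕ) (B C : ℤ)
    (hWd : 0 < Wd) (hUd : 0 < Ud) (han : 0 < an) (had : 0 < ad) (hS : 0 < S) (hn : 0 < n)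
    (hsum : (wu.map Prod.fst).sum = Wd) (hu : ∀ b ∈ wu, b.2 < Ud)
    (hbk : ∀ b ∈ tyC wu (j + 1), b.2 < Ud ^ (j + 1))
    (hμ : (j + 1) * an ≤ 2 * ad * 2 ^ s)
    (hBC : 2 * C < B) (hC : ((S : ℤ) + 1) * 2 ^ (P + 1) ≤ C)
    (hfin : (an : ℚ) / ad * j * lamUp2 wu Wd Ud (j + 1) K * (S : ℚ) ^ 2
      < sigAll2 wu Wd Ud j S s n ((j + 1) * an) (2 * ad) P B C) :
    ∀ c : ℝ, (an : ℝ) / ad ≤ c →
      Tendsto (fun N : ℕ => satProb (j + 1) N ⌊c * (N : ℝ)⌋₊) atTop (𝓝 0) := by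
  have hWd' : (0 : ℝ) < Wd := by exact_mod_cast hWd
  have hUd' : (0 : ℝ) < Ud := by exact_mod_cast hUd
  have han' : (0 : ℝ) < an := by exact_mod_cast han
  have had' : (0 : ℝ) < ad := by exact_mod_cast had
  have hS' : (0 : ℝ) < S := by exact_mod_cast hS
  set w := wOf wu Wd with hw
  set u := uOf wu Ud with hu'
  set α : ℝ := (an : ℝ) / ad with hα
  have hα0 : 0 < α := by rw [hα]; positivity
  have hsumR : (wu.map (fun b => (b.1 : ℝ))).sum = (Wd : ℝ) := by
    have : (wu.map (fun b => (b.1 : ℝ))).sum = (((wu.map Prod.fst).sum : ℕ) : ℝ) := by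
      rw [Nat.cast_list_sum, List.map_map]
      rfl
    rw [this, hsum]
  refine one_rsb_upper (j + 1) (by omega) w u ?_ ?_ ?_ ?_ α hα0 P ?_
  · intro t; rw [hw]; unfold wOf; positivity
  · rw [hw]; unfold wOf
    rw [← Finset.sum_div, Fin.sum_univ_fun_getElem wu (fun b => (b.1 : ℝ)), hsumR,
      div_self hWd'.ne']
  · intro t; rw [hu']; unfold uOf; positivity
  · intro t; rw [hu']; unfold uOf
    rw [div_lt_one hUd']
    exact_mod_cast hu _ (List.getElem_mem _)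
  · -- the criterion
    set D := Ud ^ j with hD
    set W := Wd ^ j with hW
    have hD0 : 0 < D := by rw [hD]; positivity
    have hW0 : 0 < W := by rw [hW]; positivity
    set L := tyC wu j with hL
    set mn := (j + 1) * an with hmn
    set md := 2 * ad with hmd
    have hmd0 : 0 < md := by rw [hmd]; positivity
    set f : ℕ → ℝ := fun i => S * Real.exp (-((mn : ℝ) / md) * (1 - momL D L i / W)) with hf
    have hM1 : ∀ i, momL D L i ≤ W := by
      intro i
      rw [hL, momL_tyC]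
      refine (momL_le D hD0 _ i).trans (le_of_eq ?_)
      rw [Nat.cast_list_sum, List.map_map]
      have := tyN_wsum wu j
      rw [hsumR] at this
      rw [hW]
      push_cast
      rw [← this]
      rfl
    have hrun := (runH_alt S s n D W mn md hS hn hD0 hW0 hmd0 hμ L (momL_nonneg D L) hM1
      (P + 1) 0).1
    have e0 : (fun i => (S : ℝ) * Real.exp (-((mn : ℝ) / md) * (1 - momL D L (0 + i) / W))) = f := by
      funext i
      rw [zero_add]
    rw [e0, ← initL_eq] at hrun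
    set H := runH S s n D W mn md (P + 1) false (initL S D L) with hH
    have hlen : H.length = P + 1 := runH_length _ _ _ _ _ _ _ _ _ _
    have hbd : BdL ((S : ℤ) + 1) H := runH_bd S s n D W mn md hS hn _ _ _
    have hN : AltEncN (P + 1) false H f := (AltEncN_of_AltEnc (P + 1) H f (by omega)).1 hrun
    have hdiff : AltEncN P false (diffPad H) (dd f (0 + 1)) := AltEncN_diffPad P H f hN
    have hM0 : (0 : ℤ) ≤ (S : ℤ) + 1 := by positivity
    have h2P : (1 : ℤ) ≤ 2 ^ (P + 1) := one_le_pow₀ (by norm_num)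
    have hMC : (S : ℤ) + 1 ≤ C := by nlinarith
    have hsig := sigPk_le f B C hBC P 0 (diffPad H) (2 * ((S : ℤ) + 1)) hdiff
      (BdL_diffPad _ H hbd) (by linarith) (by rw [pow_succ] at hC; linarith)
    rw [← stepPk_pack B C _ hM0 hMC hBC H hbd] at hsig
    have hμeq : ((j + 1 : ℕ) : ℝ) * α / 2 = (mn : ℝ) / md := by
      rw [hα, hmn, hmd]; push_cast; field_simp
    have hA : ∀ p, dd f p 0 = S * Ahat j w u (((j + 1 : ℕ) : ℝ) * α / 2) p := by
      intro p
      rw [dd_eq_sum]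
      unfold Ahat
      rw [Finset.mul_sum]
      refine Finset.sum_congr rfl (fun i _ => ?_)
      rw [zero_add, hμeq, hw, hu', Mmom_eq wu Wd Ud j hUd (tyN_le wu Ud hu j) i, ← momL_tyC]
      simp only [hf]
      ring
    have hsig2 : ((sigAll2 wu Wd Ud j S s n mn md P B C : ℚ) : ℝ) ≤ (S : ℝ) ^ 2 *
        ∑ p ∈ range P, Ahat j w u (((j + 1 : ℕ) : ℝ) * α / 2) (p + 1) ^ 2 / ((p : ℝ) + 1) := by
      unfold sigAll2
      refine hsig.trans (le_of_eq ?_)
      rw [Finset.mul_sum]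
      refine Finset.sum_congr rfl (fun p _ => ?_)
      rw [zero_add, hA]
      ring
    have hlam := LamRSB_le2 wu Wd Ud (j + 1) K hUd hbk
    have hfin' : α * j * ((lamUp2 wu Wd Ud (j + 1) K : ℚ) : ℝ) * (S : ℝ) ^ 2
        < ((sigAll2 wu Wd Ud j S s n mn md P B C : ℚ) : ℝ) := by
      have := (Rat.cast_lt (K := ℝ)).2 hfin
      push_cast at this
      rw [hα]
      exact this
    have e1 : (((j + 1 : ℕ) : ℝ)) - 1 = j := by push_cast; ring
    have e2 : j + 1 - 1 = j := by simp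
    rw [e1, e2]
    have hαj : 0 ≤ α * j := by positivity
    have h5 : α * j * LamRSB (j + 1) w u ≤ α * j * ((lamUp2 wu Wd Ud (j + 1) K : ℚ) : ℝ) :=
      mul_le_mul_of_nonneg_left hlam hαj
    have hS2 : (0 : ℝ) < (S : ℝ) ^ 2 := by positivity
    have h6 : α * j * LamRSB (j + 1) w u * (S : ℝ) ^ 2 < (S : ℝ) ^ 2 *
        ∑ p ∈ range P, Ahat j w u (((j + 1 : ℕ) : ℝ) * α / 2) (p + 1) ^ 2 / ((p : ℝ) + 1) := by
      have := mul_le_mul_of_nonneg_right h5 hS2.le
      linarith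
    rw [mul_comm ((S : ℝ) ^ 2)] at h6
    exact lt_of_mul_lt_mul_right h6 hS2.le

end Vale.Agent.P170
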