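import Vale.Agent.P170.UB3.FixDefs

/-!
Difference tables of alternating lower and upper approximations.
-/

namespace Vale.Agent.P170

open Finset

/-- the list gives alternately lower (`false`) and upper (`true`) bounds of a real sequence -/
def AltEnc : Bool → List ℤ → (ℕ → ℝ) → Prop
  | _, [], _ => True
  | false, a :: l, f => (a : ℝ) ≤ f 0 ∧ AltEnc true l (fun i => f (i + 1))
  | true, a :: l, f => f 0 ≤ (a : ℝ) ∧ AltEnc false l (fun i => f (i + 1))

lemma AltEnc_diffZA : ∀ (l : List ℤ) (a : ℤ) (f : ℕ → ℝ),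
    ((a : ℝ) ≤ f 0 → AltEnc true l (fun i => f (i + 1)) →
      AltEnc false (diffZA a l) (fun i => f i - f (i + 1))) ∧
    (f 0 ≤ (a : ℝ) → AltEnc false l (fun i => f (i + 1)) →
      AltEnc true (diffZA a l) (fun i => f i - f (i + 1))) := by
  intro l
  induction l with
  | nil => intro a f; exact ⟨fun _ _ => trivial, fun _ _ => trivial⟩
  | cons b l ih =>
    intro a f
    constructor
    · intro ha hl
      obtain ⟨hb, hl'⟩ := hl
      refine ⟨?_, ?_⟩
      · push_cast
        linarith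
      · exact (ih b (fun i => f (i + 1))).2 hb hl'
    · intro ha hl
      obtain ⟨hb, hl'⟩ := hl
      refine ⟨?_, ?_⟩
      · push_cast
        linarith
      · exact (ih b (fun i => f (i + 1))).1 hb hl'

lemma AltEnc_diffZ (L : List ℤ) (f : ℕ → ℝ) (h : AltEnc false L f) :
    AltEnc false (diffZ L) (fun i => f i - f (i + 1)) := by
  cases L with
  | nil => trivial
  | cons a l => exact (AltEnc_diffZA l a f).1 h.1 h.2

/-- iterated differences of a real sequence -/
def dd (f : ℕ → ℝ) : ℕ → ℕ → ℝ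
  | 0, i => f i
  | p + 1, i => dd f p i - dd f p (i + 1)

lemma dd_eq_sum (f : ℕ → ℝ) : ∀ (p i : ℕ),
    dd f p i = ∑ j ∈ range (p + 1), (-1 : ℝ) ^ j * (p.choose j : ℝ) * f (i + j) := by
  intro p
  induction p with
  | zero => intro i; simp [dd]
  | succ p ih =>
    intro i
    simp only [dd]
    rw [ih i, ih (i + 1)]
    rw [Finset.sum_range_succ' _ (p + 1)]
    have h1 : ∀ j, (-1 : ℝ) ^ (j + 1) * ((p + 1).choose (j + 1) : ℝ) * f (i + (j + 1)) =
        (-1 : ℝ) ^ (j + 1) * (p.choose (j + 1) : ℝ) * f (i + (j + 1))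
          - (-1 : ℝ) ^ j * (p.choose j : ℝ) * f (i + 1 + j) := by
      intro j
      rw [Nat.choose_succ_succ]
      have e : i + 1 + j = i + (j + 1) := by ring
      rw [e]
      push_cast
      ring
    simp_rw [h1]
    rw [Finset.sum_sub_distrib]
    have h2 : ∑ j ∈ range (p + 1), (-1 : ℝ) ^ j * (p.choose j : ℝ) * f (i + j) =
        ∑ j ∈ range (p + 1), (-1 : ℝ) ^ (j + 1) * (p.choose (j + 1) : ℝ) * f (i + (j + 1))
          + (-1 : ℝ) ^ 0 * ((p + 1).choose 0 : ℝ) * f (i + 0) := by
      have h3 := Finset.sum_range_succ' (fun j => (-1 : ℝ) ^ j * (p.choose j : ℝ) * f (i + j)) (p + 1)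
      have h4 := Finset.sum_range_succ (fun j => (-1 : ℝ) ^ j * (p.choose j : ℝ) * f (i + j)) (p + 1)
      rw [h3] at h4
      have h5 : (p.choose (p + 1) : ℝ) = 0 := by
        rw [Nat.choose_succ_self]; simp
      rw [h5] at h4
      simp only [Nat.choose_zero_right] at h4 ⊢
      linarith
    rw [h2]
    ring

lemma sq_pos_part_le (d : ℤ) (A : ℝ) (h : (d : ℝ) ≤ A) :
    (((max d 0 ^ 2 : ℤ) : ℚ) : ℝ) ≤ A ^ 2 := by
  push_cast
  rcases le_total d 0 with h0 | h0
  · rw [max_eq_right (by exact_mod_cast h0)]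
    have := sq_nonneg A
    simpa using this
  · have h0' : (0 : ℝ) ≤ d := by exact_mod_cast h0
    rw [max_eq_left h0']
    exact pow_le_pow_left₀ h0' h 2

lemma sigZ_le (f : ℕ → ℝ) : ∀ (n p : ℕ) (L : List ℤ), AltEnc false L (dd f (p + 1)) →
    ((sigZ n p L : ℚ) : ℝ) ≤ ∑ j ∈ range n, (dd f (p + j + 1) 0) ^ 2 / (((p + j : ℕ) : ℝ) + 1) := by
  intro n
  induction n with
  | zero => intro p L _; simp [sigZ]
  | succ n ih =>
    intro p L hL
    rw [Finset.sum_range_succ']
    have h1 : AltEnc false (diffZ L) (dd f (p + 1 + 1)) := AltEnc_diffZ L _ hL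
    have h2 := ih (p + 1) (diffZ L) h1
    have e3 : ∑ j ∈ range n, (dd f (p + 1 + j + 1) 0) ^ 2 / (((p + 1 + j : ℕ) : ℝ) + 1) =
        ∑ j ∈ range n, (dd f (p + (j + 1) + 1) 0) ^ 2 / (((p + (j + 1) : ℕ) : ℝ) + 1) := by
      refine Finset.sum_congr rfl fun j _ => ?_
      have : p + 1 + j = p + (j + 1) := by ring
      rw [this]
    rw [e3] at h2
    simp only [sigZ]
    push_cast at h2 ⊢
    have hp : (0 : ℝ) < (p : ℝ) + 1 := by positivity
    have h3 : ((max ((L.headD 0 : ℤ) : ℝ) 0) ^ 2) / ((p : ℝ) + 1)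
        ≤ (dd f (p + 0 + 1) 0) ^ 2 / ((p : ℝ) + 0 + 1) := by
      rw [add_zero, add_zero]
      apply div_le_div_of_nonneg_right _ hp.le
      cases L with
      | nil =>
        simp only [List.headD_nil, Int.cast_zero, max_self]
        have := sq_nonneg (dd f (p + 1) 0)
        simpa using this
      | cons a l =>
        simp only [List.headD_cons]
        have := sq_pos_part_le a _ hL.1
        push_cast at this
        exact this
    linarith

end Vale.Agent.P170
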