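import Vale.Agent.P170.UB3.FixExp
import Vale.Agent.P170.UB3.FixTab

/-!
Sums over tuples of atoms as list sums, enclosures of the moments, correctness of `runH`.
-/

namespace Vale.Agent.P170

open Finset

lemma sum_map_flatMap' {α β : Type} (l : List α) (f : α → List β) (g : β → ℝ) :
    ((l.flatMap f).map g).sum = (l.map (fun a => ((f a).map g).sum)).sum := by
  induction l with
  | nil => simp
  | cons a l ih => simp [List.flatMap_cons, List.map_append, List.sum_append, ih]

/-- sums over tuples of atoms are list sums over `tyN` -/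
lemma tyN_sum (wu : List (ℕ × ℕ)) : ∀ (j : ℕ) (G : ℕ → ℕ → ℝ),
    ∑ e : Fin j → Fin wu.length, G (∏ s, (wu[(e s).1]).1) (∏ s, (wu[(e s).1]).2)
      = ((tyN wu j).map (fun b => G b.1 b.2)).sum := by
  intro j
  induction j with
  | zero => intro G; simp [tyN]
  | succ j ih =>
    intro G
    rw [← (Fin.consEquiv (fun _ : Fin (j + 1) => Fin wu.length)).sum_comp, Fintype.sum_prod_type]
    simp only [tyN]
    rw [sum_map_flatMap', ← Fin.sum_univ_fun_getElem]
    refine Finset.sum_congr rfl (fun a _ => ?_)
    rw [List.map_map]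
    have := ih (fun W U => G ((wu[a.1]).1 * W) ((wu[a.1]).2 * U))
    simp only [Function.comp_def]
    rw [← this]
    refine Finset.sum_congr rfl (fun e _ => ?_)
    simp [Fin.consEquiv, Fin.prod_univ_succ]

/-- lower enclosure of `S * (xn / D) ^ i` -/
def plo (D xn S : ℕ) : ℕ → ℕ
  | 0 => S
  | i + 1 => plo D xn S i * xn / D

/-- upper enclosure of `S * (xn / D) ^ i` -/
def phiU (D xn S : ℕ) : ℕ → ℕ
  | 0 => S
  | i + 1 => phiU D xn S i * xn / D + 1

lemma plo_le (D xn S : ℕ) (hD : 0 < D) (i : ℕ) :
    (plo D xn S i : ℝ) ≤ S * ((xn : ℝ) / D) ^ i := by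
  have hD' : (0 : ℝ) < D := by exact_mod_cast hD
  induction i with
  | zero => simp [plo]
  | succ i ih =>
    simp only [plo]
    refine (fx_div_le _ _).trans ?_
    rw [pow_succ, ← mul_assoc, ← mul_div_assoc]
    apply div_le_div_of_nonneg_right _ hD'.le
    push_cast
    exact mul_le_mul_of_nonneg_right ih (Nat.cast_nonneg _)

lemma le_phiU (D xn S : ℕ) (hD : 0 < D) (i : ℕ) :
    S * ((xn : ℝ) / D) ^ i ≤ (phiU D xn S i : ℝ) := by
  have hD' : (0 : ℝ) < D := by exact_mod_cast hD
  induction i with
  | zero => simp [phiU]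
  | succ i ih =>
    simp only [phiU]
    refine le_trans ?_ (fx_le_div _ _ hD)
    rw [pow_succ, ← mul_assoc, ← mul_div_assoc]
    apply div_le_div_of_nonneg_right _ hD'.le
    push_cast
    exact mul_le_mul_of_nonneg_right ih (Nat.cast_nonneg _)

/-- the state of the enclosures after `i` steps -/
def stateL (S D : ℕ) (L : List (ℕ × ℕ)) (i : ℕ) : List (ℕ × ℕ × ℕ × ℕ) :=
  L.map (fun b => (b.1, D - b.2, plo D (D - b.2) S i, phiU D (D - b.2) S i))

lemma initL_eq (S D : ℕ) (L : List (ℕ × ℕ)) : initL S D L = stateL S D L 0 := rfl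

lemma stepL_stateL (S D : ℕ) (L : List (ℕ × ℕ)) (i : ℕ) :
    stepL D (stateL S D L i) = stateL S D L (i + 1) := by
  simp [stepL, stateL, plo, phiU, List.map_map, Function.comp_def]

/-- unnormalised moment -/
noncomputable def momL (D : ℕ) (L : List (ℕ × ℕ)) (i : ℕ) : ℝ :=
  (L.map (fun b => (b.1 : ℝ) * (((D - b.2 : ℕ) : ℝ) / D) ^ i)).sum

lemma sumLo_le (S D : ℕ) (hD : 0 < D) (L : List (ℕ × ℕ)) (i : ℕ) :
    (sumLo (stateL S D L i) : ℝ) ≤ S * momL D L i := by
  induction L with
  | nil => simp [stateL, sumLo, momL]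
  | cons b L ih =>
    have h := plo_le D (D - b.2) S hD i
    have h2 := mul_le_mul_of_nonneg_left h (Nat.cast_nonneg (α := ℝ) b.1)
    simp only [stateL, momL, List.map_cons, sumLo, List.sum_cons] at ih ⊢
    push_cast
    rw [mul_add]
    nlinarith

lemma le_sumHi (S D : ℕ) (hD : 0 < D) (L : List (ℕ × ℕ)) (i : ℕ) :
    S * momL D L i ≤ (sumHi (stateL S D L i) : ℝ) := by
  induction L with
  | nil => simp [stateL, sumHi, momL]
  | cons b L ih =>
    have h := le_phiU D (D - b.2) S hD i
    have h2 := mul_le_mul_of_nonneg_left h (Nat.cast_nonneg (α := ℝ) b.1)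
    simp only [stateL, momL, List.map_cons, sumHi, List.sum_cons] at ih ⊢
    push_cast
    rw [mul_add]
    nlinarith

/-- correctness of `runH` -/
theorem runH_alt (S s n D W mn md : ℕ) (hS : 0 < S) (hn : 0 < n) (hD : 0 < D) (hW : 0 < W)
    (hmd : 0 < md) (hμ : mn ≤ md * 2 ^ s) (L : List (ℕ × ℕ))
    (hM0 : ∀ i, 0 ≤ momL D L i) (hM1 : ∀ i, momL D L i ≤ W) :
    ∀ (f i : ℕ),
      AltEnc false (runH S s n D W mn md f false (stateL S D L i))
        (fun j => S * Real.exp (-((mn : ℝ) / md) * (1 - momL D L (i + j) / W))) ∧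
      AltEnc true (runH S s n D W mn md f true (stateL S D L i))
        (fun j => S * Real.exp (-((mn : ℝ) / md) * (1 - momL D L (i + j) / W))) := by
  have hS' : (0 : ℝ) < S := by exact_mod_cast hS
  have hW' : (0 : ℝ) < W := by exact_mod_cast hW
  have hmd' : (0 : ℝ) < md := by exact_mod_cast hmd
  have hmn' : (0 : ℝ) ≤ mn := Nat.cast_nonneg _
  have h2s : (0 : ℝ) < 2 ^ s := by positivity
  have hμ' : (mn : ℝ) ≤ md * 2 ^ s := by exact_mod_cast hμ
  intro f
  induction f with
  | zero => intro i; exact ⟨trivial, trivial⟩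
  | succ f ih =>
    intro i
    have hshift : (fun j => (S : ℝ) * Real.exp (-((mn : ℝ) / md) * (1 - momL D L (i + 1 + j) / W)))
        = (fun j => (S : ℝ) * Real.exp (-((mn : ℝ) / md) * (1 - momL D L (i + (j + 1)) / W))) := by
      funext j
      have : i + 1 + j = i + (j + 1) := by ring
      rw [this]
    set M := momL D L i with hM
    set y : ℝ := (mn : ℝ) / md * (1 - M / W) / 2 ^ s with hy
    have hMW : M / W ≤ 1 := by rw [div_le_one hW']; exact hM1 i
    have hMW0 : 0 ≤ M / W := div_nonneg (hM0 i) hW'.le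
    have hy0 : 0 ≤ y := by
      rw [hy]
      have : 0 ≤ 1 - M / W := by linarith
      positivity
    have hy1 : y ≤ 1 := by
      rw [hy, div_le_one h2s]
      have h1 : (mn : ℝ) / md ≤ 2 ^ s := by rw [div_le_iff₀ hmd']; linarith
      have h2 : 1 - M / W ≤ 1 := by linarith
      have h3 : 0 ≤ (mn : ℝ) / md := by positivity
      have h4 : 0 ≤ 1 - M / W := by linarith
      calc (mn : ℝ) / md * (1 - M / W) ≤ (mn : ℝ) / md * 1 := mul_le_mul_of_nonneg_left h2 h3
        _ ≤ 2 ^ s := by linarith
    have hz : y * 2 ^ s = (mn : ℝ) / md * (1 - M / W) := by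
      rw [hy]; field_simp
    have hSy : (S : ℝ) * y = (mn : ℝ) * (S * W - S * M) / ((md * W * 2 ^ s : ℕ) : ℝ) := by
      rw [hy]; push_cast; field_simp
    have hden : 0 < md * W * 2 ^ s := by positivity
    have hden' : (0 : ℝ) < ((md * W * 2 ^ s : ℕ) : ℝ) := by exact_mod_cast hden
    constructor
    · simp only [runH]
      refine ⟨?_, ?_⟩
      · simp only [add_zero]
        rw [← hM]
        have hyh : (S : ℝ) * y ≤ ((mn * (S * W - sumLo (stateL S D L i)) / (md * W * 2 ^ s) + 1 : ℕ) : ℝ) := by
          refine le_trans ?_ (fx_le_div _ _ hden)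
          rw [hSy]
          apply div_le_div_of_nonneg_right _ hden'.le
          push_cast
          apply mul_le_mul_of_nonneg_left _ hmn'
          have h1 := sumLo_le S D hD L i
          have h2 : ((S * W : ℕ) : ℝ) - (sumLo (stateL S D L i) : ℝ)
              ≤ ((S * W - sumLo (stateL S D L i) : ℕ) : ℝ) := by
            rcases le_total (sumLo (stateL S D L i)) (S * W) with h | h
            · rw [Nat.cast_sub h]
            · rw [Nat.sub_eq_zero_of_le h]
              have : ((S * W : ℕ) : ℝ) ≤ (sumLo (stateL S D L i) : ℝ) := by exact_mod_cast h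
              simp only [Nat.cast_zero]
              linarith
          push_cast at h2
          linarith
        have h3 := le_expHi S s n _ hS hn y hy0 hy1 hyh
        have h4 := recip_le S _ hS _ h3
        rw [hz] at h4
        have e : -((mn : ℝ) / md * (1 - M / W)) = -((mn : ℝ) / md) * (1 - M / W) := by ring
        rw [e] at h4
        exact_mod_cast h4
      · rw [stepL_stateL, ← hshift]
        exact (ih (i + 1)).2
    · simp only [runH]
      refine ⟨?_, ?_⟩
      · simp only [add_zero]
        rw [← hM]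
        have hyl : ((mn * (S * W - sumHi (stateL S D L i)) / (md * W * 2 ^ s) : ℕ) : ℝ) ≤ (S : ℝ) * y := by
          refine (fx_div_le _ _).trans ?_
          rw [hSy]
          apply div_le_div_of_nonneg_right _ hden'.le
          push_cast
          apply mul_le_mul_of_nonneg_left _ hmn'
          have h1 := le_sumHi S D hD L i
          rcases le_total (sumHi (stateL S D L i)) (S * W) with h | h
          · rw [Nat.cast_sub h]
            push_cast
            linarith
          · rw [Nat.sub_eq_zero_of_le h]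
            simp only [Nat.cast_zero]
            have : (S : ℝ) * M ≤ S * W := mul_le_mul_of_nonneg_left (hM1 i) hS'.le
            linarith
        have h3 := expLo_le S s n _ hS y hy0 hyl
        have hpos : 0 < expLo S s n (mn * (S * W - sumHi (stateL S D L i)) / (md * W * 2 ^ s)) :=
          lt_of_lt_of_le hS (le_expLo S s n _ hS hn)
        have h4 := le_recip S _ hS hpos _ h3
        rw [hz] at h4
        have e : -((mn : ℝ) / md * (1 - M / W)) = -((mn : ℝ) / md) * (1 - M / W) := by ring
        rw [e] at h4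
        exact_mod_cast h4
      · rw [stepL_stateL, ← hshift]
        exact (ih (i + 1)).1

end Vale.Agent.P170
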