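import Vale.Agent.P170.UB3.FixMom

/-!
The difference table evaluated on a single integer that packs a whole row in a large base.
-/

namespace Vale.Agent.P170

open Finset

/-- value of a list of digits in base `B` -/
def packZ (B : ℤ) : List ℤ → ℤ
  | [] => 0
  | a :: l => a + B * packZ B l

/-- lowest digit, digits lying in `[-C, B - C)` -/
def hdPk (B C Y : ℤ) : ℤ := (Y + C) % B - C

/-- one difference step on packed rows -/
def stepPk (B C Y : ℤ) : ℤ := Y - (Y - hdPk B C Y) / B

/-- packed version of `sigZ` -/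
def sigPk (B C : ℤ) : ℕ → ℕ → ℤ → ℚ
  | 0, _, _ => 0
  | n + 1, p, Y =>
    ((max (hdPk B C Y) 0 ^ 2 : ℤ) : ℚ) / ((p : ℚ) + 1) + sigPk B C n (p + 1) (stepPk B C Y)

/-- consecutive differences, the last entry being kept -/
def diffPadA : ℤ → List ℤ → List ℤ
  | a, [] => [a]
  | a, b :: l => (a - b) :: diffPadA b l

/-- consecutive differences, the last entry being kept -/
def diffPad : List ℤ → List ℤ
  | [] => []
  | a :: l => diffPadA a l

lemma pack_diffPadA (B : ℤ) : ∀ (l : List ℤ) (a : ℤ),
    packZ B (diffPadA a l) = packZ B (a :: l) - packZ B l := by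
  intro l
  induction l with
  | nil => intro a; simp [diffPadA, packZ]
  | cons b l ih =>
    intro a
    simp only [diffPadA, packZ] at ih ⊢
    rw [ih b]
    ring

lemma pack_diffPad (B : ℤ) (L : List ℤ) :
    packZ B (diffPad L) = packZ B L - packZ B L.tail := by
  cases L with
  | nil => simp [diffPad, packZ]
  | cons a l => exact pack_diffPadA B l a

lemma pack_head_tail (B : ℤ) (L : List ℤ) : packZ B L = L.headD 0 + B * packZ B L.tail := by
  cases L with
  | nil => simp [packZ]
  | cons a l => simp [packZ]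

lemma hdPk_eq (B C a t : ℤ) (h1 : -C ≤ a) (h2 : a + C < B) : hdPk B C (a + B * t) = a := by
  unfold hdPk
  have e : a + B * t + C = (a + C) + B * t := by ring
  rw [e, Int.add_mul_emod_self_left, Int.emod_eq_of_lt (by linarith) h2]
  ring

/-- all entries bounded by `M` in absolute value -/
def BdL (M : ℤ) (L : List ℤ) : Prop := ∀ a ∈ L, |a| ≤ M

lemma BdL_diffPadA (M : ℤ) : ∀ (l : List ℤ) (a : ℤ), |a| ≤ M → BdL M l →
    BdL (2 * M) (diffPadA a l) := by
  intro l
  induction l with
  | nil =>
    intro a ha _ x hx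
    simp only [diffPadA, List.mem_singleton] at hx
    rw [hx]
    have := abs_nonneg a
    linarith
  | cons b l ih =>
    intro a ha hl x hx
    simp only [diffPadA, List.mem_cons] at hx
    have hb : |b| ≤ M := hl b (by simp)
    rcases hx with hx | hx
    · rw [hx]
      have := abs_sub a b
      linarith
    · exact ih b hb (fun c hc => hl c (by simp [hc])) x hx

lemma BdL_diffPad (M : ℤ) (L : List ℤ) (h : BdL M L) : BdL (2 * M) (diffPad L) := by
  cases L with
  | nil => intro x hx; simp [diffPad] at hx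
  | cons a l => exact BdL_diffPadA M l a (h a (by simp)) (fun c hc => h c (by simp [hc]))

lemma BdL_headD (M : ℤ) (hM : 0 ≤ M) (L : List ℤ) (h : BdL M L) : |L.headD 0| ≤ M := by
  cases L with
  | nil => simpa using hM
  | cons a l => exact h a (by simp)

lemma hdPk_pack (B C M : ℤ) (hM : 0 ≤ M) (hMC : M ≤ C) (hBC : 2 * C < B) (L : List ℤ)
    (h : BdL M L) : hdPk B C (packZ B L) = L.headD 0 := by
  rw [pack_head_tail]
  have := abs_le.1 (BdL_headD M hM L h)
  exact hdPk_eq B C _ _ (by linarith [this.1]) (by linarith [this.2])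

lemma stepPk_pack (B C M : ℤ) (hM : 0 ≤ M) (hMC : M ≤ C) (hBC : 2 * C < B) (L : List ℤ)
    (h : BdL M L) : stepPk B C (packZ B L) = packZ B (diffPad L) := by
  unfold stepPk
  rw [hdPk_pack B C M hM hMC hBC L h, pack_diffPad]
  have hB : B ≠ 0 := by
    intro hB
    rw [hB] at hBC
    linarith
  have e : packZ B L - L.headD 0 = B * packZ B L.tail := by
    have := pack_head_tail B L
    linarith
  rw [e, Int.mul_ediv_cancel_left _ hB]

/-- the list has at least `n` entries, the first `n` of which give alternately lower and upper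
bounds of a real sequence -/
def AltEncN : ℕ → Bool → List ℤ → (ℕ → ℝ) → Prop
  | 0, _, _, _ => True
  | _ + 1, _, [], _ => False
  | n + 1, false, a :: l, f => (a : ℝ) ≤ f 0 ∧ AltEncN n true l (fun i => f (i + 1))
  | n + 1, true, a :: l, f => f 0 ≤ (a : ℝ) ∧ AltEncN n false l (fun i => f (i + 1))

lemma AltEncN_of_AltEnc : ∀ (n : ℕ) (L : List ℤ) (f : ℕ → ℝ), n ≤ L.length →
    (AltEnc false L f → AltEncN n false L f) ∧ (AltEnc true L f → AltEncN n true L f) := by
  intro n
  induction n with
  | zero => intro L f _; exact ⟨fun _ => trivial, fun _ => trivial⟩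
  | succ n ih =>
    intro L f hn
    cases L with
    | nil => simp at hn
    | cons a l =>
      have hn' : n ≤ l.length := by simpa using hn
      exact ⟨fun h => ⟨h.1, (ih l _ hn').2 h.2⟩, fun h => ⟨h.1, (ih l _ hn').1 h.2⟩⟩

lemma AltEncN_diffPadA : ∀ (n : ℕ) (l : List ℤ) (a : ℤ) (f : ℕ → ℝ),
    ((a : ℝ) ≤ f 0 → AltEncN n true l (fun i => f (i + 1)) →
      AltEncN n false (diffPadA a l) (fun i => f i - f (i + 1))) ∧
    (f 0 ≤ (a : ℝ) → AltEncN n false l (fun i => f (i + 1)) →
      AltEncN n true (diffPadA a l) (fun i => f i - f (i + 1))) := by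
  intro n
  induction n with
  | zero => intro l a f; exact ⟨fun _ _ => trivial, fun _ _ => trivial⟩
  | succ n ih =>
    intro l a f
    cases l with
    | nil => exact ⟨fun _ h => h.elim, fun _ h => h.elim⟩
    | cons b l =>
      constructor
      · intro ha hl
        obtain ⟨hb, hl'⟩ := hl
        refine ⟨?_, ?_⟩
        · push_cast
          linarith
        · exact (ih l b (fun i => f (i + 1))).2 hb hl'
      · intro ha hl
        obtain ⟨hb, hl'⟩ := hl
        refine ⟨?_, ?_⟩
        · push_cast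
          linarith
        · exact (ih l b (fun i => f (i + 1))).1 hb hl'

lemma AltEncN_diffPad (n : ℕ) (L : List ℤ) (f : ℕ → ℝ) (h : AltEncN (n + 1) false L f) :
    AltEncN n false (diffPad L) (fun i => f i - f (i + 1)) := by
  cases L with
  | nil => exact h.elim
  | cons a l => exact (AltEncN_diffPadA n l a f).1 h.1 h.2

lemma sigPk_le (f : ℕ → ℝ) (B C : ℤ) (hBC : 2 * C < B) : ∀ (n p : ℕ) (L : List ℤ) (M : ℤ),
    AltEncN n false L (dd f (p + 1)) → BdL M L → 0 ≤ M → M * 2 ^ n ≤ C →
    ((sigPk B C n p (packZ B L) : ℚ) : ℝ)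
      ≤ ∑ j ∈ range n, (dd f (p + j + 1) 0) ^ 2 / (((p + j : ℕ) : ℝ) + 1) := by
  intro n
  induction n with
  | zero => intro p L M _ _ _ _; simp [sigPk]
  | succ n ih =>
    intro p L M hL hB hM hMC
    have h2n : (1 : ℤ) ≤ 2 ^ (n + 1) := one_le_pow₀ (by norm_num)
    have hMC' : M ≤ C := by nlinarith
    rw [Finset.sum_range_succ']
    have h1 : AltEncN n false (diffPad L) (dd f (p + 1 + 1)) := AltEncN_diffPad n L _ hL
    have h2 := ih (p + 1) (diffPad L) (2 * M) h1 (BdL_diffPad M L hB) (by linarith)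
      (by rw [pow_succ] at hMC; linarith)
    have e3 : ∑ j ∈ range n, (dd f (p + 1 + j + 1) 0) ^ 2 / (((p + 1 + j : ℕ) : ℝ) + 1) =
        ∑ j ∈ range n, (dd f (p + (j + 1) + 1) 0) ^ 2 / (((p + (j + 1) : ℕ) : ℝ) + 1) := by
      refine Finset.sum_congr rfl fun j _ => ?_
      have : p + 1 + j = p + (j + 1) := by ring
      rw [this]
    rw [e3] at h2
    simp only [sigPk]
    rw [stepPk_pack B C M hM hMC' hBC L hB, hdPk_pack B C M hM hMC' hBC L hB]
    rw [Rat.cast_add]
    have hp : (0 : ℝ) < (p : ℝ) + 1 := by positivity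
    have h3 : ((((max (L.headD 0) 0 ^ 2 : ℤ) : ℚ) / ((p : ℚ) + 1) : ℚ) : ℝ)
        ≤ (dd f (p + 0 + 1) 0) ^ 2 / (((p + 0 : ℕ) : ℝ) + 1) := by
      rw [add_zero, Rat.cast_div]
      have e4 : (((p : ℚ) + 1 : ℚ) : ℝ) = (p : ℝ) + 1 := by push_cast; rfl
      rw [e4]
      apply div_le_div_of_nonneg_right _ hp.le
      cases L with
      | nil => exact hL.elim
      | cons a l =>
        simp only [List.headD_cons]
        exact sq_pos_part_le a _ hL.1
    linarith

end Vale.Agent.P170
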